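import Vale.Agent.P097.H21.W.VcW
import Vale.Agent.P097.H226.W.Defs2

/-!
# P097 / case [c] / block (W): row `H226.W.Brg`

Nested points in straight coordinates (mid level and non R2 points at the axis points), and the
comparison of `Im del` at the label points `vp` and at the axis points `zp`.
-/

set_option linter.all false

noncomputable section

open Complex Metric Filter Topology Set

namespace Vale.Agent.P097.H21.W

open Vale.Agent.P097.H881 Vale.Agent.P097.TC Vale.Agent.P097.A5 Vale.Agent.P097.H85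
open Vale.Agent.P097.H929

section geo

variable {Mj Mk B : Set (ℂ × ℂ)} {b m T K C : ℝ} {Ψ : ℂ → ℂ} {P : ℝ → ℂ} {c k : ℝ → ℝ}
  {u δ₁ ρ₁ β₀ κ l : ℝ}

/-- the value of `Ψ` over `u` -/
theorem psi_axis {M : Set (ℂ × ℂ)} (hj : Cmp M b m Ψ u ρ₁ (P u) (c u) (k u) (1 / 2) (1 / 16))
    {S : ℝ} (hS : 0 < S) (h2 : 2 * S < ρ₁) :
    ‖Ψ (u + S * I) - P u - (I * c u + k u) * (S * I)‖ ≤ S / 16 := by
  have e3 : ((u : ℂ) + S * I).re = u := by simp
  have e4 : ((u : ℂ) + S * I).im = S := by simp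
  have g2 := hj.nt (u + S * I) (by rw [e3, sub_self, abs_zero]; linarith) (by rw [e4]; exact hS)
    (by rw [e4]; linarith) (by rw [e3, e4, sub_self, abs_zero]; linarith)
  have n2 : ‖(u : ℂ) + S * I - u‖ = S := by
    rw [add_sub_cancel_left, norm_mul, Complex.norm_I, mul_one, Complex.norm_real,
      Real.norm_eq_abs, abs_of_pos hS]
  rw [n2, add_sub_cancel_left] at g2
  linarith

/-- first and second segment: from a label point straight down -/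
theorem seg_a (hBj : B ⊆ Mj) (hBk : B ⊆ Mk) (hT : 0 ≤ T) (hc : |c u| ≤ T)
    (hK : 0 < K)
    (hcone : ∀ v : ℂ, ‖v‖ < δ₁ → ∀ t : ℂ, b < t.im →
      t.im < (P u).im + c u * v.re - K * |v.im| - 1 * ‖v‖ → (t, (u : ℂ) + v) ∈ B)
    {Q : ℝ} (hQ : Q = T + K + 4) (hκ0 : 0 < κ) (hκ1 : κ ≤ 1 / 2) {S : ℝ} (hS : 0 < S)
    (h1 : 2 * S < δ₁) (h3 : S < |u|) {y y' S' L' : ℝ} (hS' : κ * Q * S ≤ S') (hQS : κ * Q * S ≤ Q * S)
    (z2 : b + Q * S + κ * S ≤ (P u).im) (z3 : b + S' + κ * S ≤ (P u).im) (hL : L' = l * (κ * S))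
    (hL0 : 0 ≤ L') (hL1 : |y - y'| + |S' - Q * S| ≤ L') :
    Sg (Dm Mj Mk) l (κ * S) (vp P y' u S') ((y : ℂ) + ((P u).im - Q * S : ℝ) * I, (u : ℂ)) := by
  refine ⟨fun t ht => ?_, ?_⟩
  · have e : vp P y' u S' + (t : ℂ) • (((y : ℂ) + ((P u).im - Q * S : ℝ) * I, (u : ℂ)) -
        vp P y' u S') = (((y' + t * (y - y') : ℝ) : ℂ) +
          ((P u).im - (S' + t * (Q * S - S')) : ℝ) * I, (u : ℂ) + ((0 * S : ℝ) : ℂ) * I) := by
      apply Prod.ext
      · simp only [vp, Prod.fst_add, Prod.smul_fst, Prod.fst_sub, smul_eq_mul]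
        push_cast
        ring
      · simp [vp]
    rw [e]
    have q0 : S' + t * (Q * S - S') = (1 - t) * S' + t * (Q * S) := by ring
    have ht1 : 0 ≤ 1 - t := by linarith [ht.2]
    have q1 : κ * Q * S ≤ S' + t * (Q * S - S') := by
      rw [q0]
      have a3 := mul_le_mul_of_nonneg_left hS' ht1
      have a4 := mul_le_mul_of_nonneg_left hQS ht.1
      linarith
    have q2 : S' + t * (Q * S - S') + κ * S ≤ (P u).im - b := by
      rw [q0]
      have a3 := mul_le_mul_of_nonneg_left (show S' + κ * S ≤ (P u).im - b by linarith) ht1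
      have a4 := mul_le_mul_of_nonneg_left (show Q * S + κ * S ≤ (P u).im - b by linarith) ht.1
      linarith
    have hlam : κ * (T + K + 4) + (K + 1) * 0 ≤ κ * Q := by rw [hQ]; linarith
    have him : (((y' + t * (y - y') : ℝ) : ℂ) +
          ((P u).im - (S' + t * (Q * S - S')) : ℝ) * I).im = (P u).im - (S' + t * (Q * S - S')) := by
      rw [add_im, ofReal_im, mul_I_im, ofReal_re, zero_add]
    exact nat_ball (R := (P u).im) (c := c u) (K := K) (δ₁ := δ₁) (b := b) hBj hBk hT hc hK hcone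
      hκ0 hκ1 hS le_rfl zero_le_one h1 h3 hlam (by rw [him]; linarith) (by rw [him]; linarith)
  · rw [← hL]
    have e : ((y : ℂ) + ((P u).im - Q * S : ℝ) * I, (u : ℂ)) - vp P y' u S' =
        (((y - y' : ℝ) : ℂ) + ((S' - Q * S : ℝ) : ℂ) * I, 0) := by
      apply Prod.ext
      · simp only [vp, Prod.fst_sub]
        push_cast
        ring
      · simp [vp]
    rw [e, Prod.norm_def, norm_zero]
    refine max_le ((norm_add_le _ _).trans ?_) hL0
    rw [norm_mul, Complex.norm_I, mul_one, Complex.norm_real, Complex.norm_real, Real.norm_eq_abs,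
      Real.norm_eq_abs]
    exact hL1

/-- third segment: change of the label -/
theorem seg_b (hBj : B ⊆ Mj) (hBk : B ⊆ Mk) (hT : 0 ≤ T) (hc : |c u| ≤ T)
    (hK : 0 < K)
    (hcone : ∀ v : ℂ, ‖v‖ < δ₁ → ∀ t : ℂ, b < t.im →
      t.im < (P u).im + c u * v.re - K * |v.im| - 1 * ‖v‖ → (t, (u : ℂ) + v) ∈ B)
    {Q : ℝ} (hQ : Q = T + K + 4) (hκ0 : 0 < κ) (hκ1 : κ ≤ 1 / 2) {S : ℝ} (hS : 0 < S)
    (h1 : 2 * S < δ₁) (h3 : S < |u|) {y L' : ℝ} (hκQ : κ * Q ≤ 1)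
    (z2 : b + Q * S + κ * S ≤ (P u).im) (hL : L' = l * (κ * S)) (hL1 : S ≤ L') :
    Sg (Dm Mj Mk) l (κ * S) ((y : ℂ) + ((P u).im - Q * S : ℝ) * I, (u : ℂ))
      ((y : ℂ) + ((P u).im - Q * S : ℝ) * I, (u : ℂ) + S * I) := by
  refine ⟨fun t ht => ?_, ?_⟩
  · have e : (((y : ℂ) + ((P u).im - Q * S : ℝ) * I, (u : ℂ)) : ℂ × ℂ) +
        (t : ℂ) • ((((y : ℂ) + ((P u).im - Q * S : ℝ) * I, (u : ℂ) + S * I) : ℂ × ℂ) -
          ((y : ℂ) + ((P u).im - Q * S : ℝ) * I, (u : ℂ))) =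
        ((y : ℂ) + ((P u).im - Q * S : ℝ) * I, (u : ℂ) + ((t * S : ℝ) : ℂ) * I) := by
      apply Prod.ext
      · simp
      · simp only [Prod.snd_add, Prod.smul_snd, Prod.snd_sub, smul_eq_mul]
        push_cast
        ring
    rw [e]
    have a1 : (K + 1) * t ≤ K + 1 := mul_le_of_le_one_right (by linarith) ht.2
    have hlam : κ * (T + K + 4) + (K + 1) * t ≤ Q := by rw [← hQ]; linarith
    have him : ((y : ℂ) + ((P u).im - Q * S : ℝ) * I).im = (P u).im - Q * S := by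
      rw [add_im, ofReal_im, mul_I_im, ofReal_re, zero_add]
    exact nat_ball (R := (P u).im) (c := c u) (K := K) (δ₁ := δ₁) (b := b) hBj hBk hT hc hK hcone
      hκ0 hκ1 hS ht.1 ht.2 h1 h3 hlam (by rw [him]) (by rw [him]; linarith)
  · rw [← hL]
    have e : ((((y : ℂ) + ((P u).im - Q * S : ℝ) * I, (u : ℂ) + S * I) : ℂ × ℂ) -
          ((y : ℂ) + ((P u).im - Q * S : ℝ) * I, (u : ℂ))) = (0, (S : ℂ) * I) := by
      apply Prod.ext
      · simp
      · simp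
    rw [e, Prod.norm_def, norm_zero, norm_mul, Complex.norm_I, mul_one, Complex.norm_real,
      Real.norm_eq_abs, abs_of_pos hS]
    exact max_le (hS.le.trans hL1) hL1

/-- fourth segment: up to the axis point -/
theorem seg_c (hT : 0 ≤ T) (hc : |c u| ≤ T) (hk : |k u| ≤ T)
    (hj : Cmp Mj b m Ψ u ρ₁ (P u) (c u) (k u) (1 / 2) (1 / 16))
    (hk' : Cmp Mk b m Ψ u ρ₁ (P u) (c u) (k u) (1 / 2) (1 / 16))
    {Q : ℝ} (hQ : T + 2 ≤ Q) (hκ0 : 0 < κ) (hκT : κ * (2 * T + 1) ≤ 1 / 32) {S : ℝ} (hS : 0 < S)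
    (h2 : 2 * S < ρ₁) {y L' : ℝ} (z2 : b + Q * S + κ * S ≤ (P u).im) (hL : L' = l * (κ * S))
    (hL1 : 4 * Q * S ≤ L') :
    Sg (Dm Mj Mk) l (κ * S) ((y : ℂ) + ((P u).im - Q * S : ℝ) * I, (u : ℂ) + S * I)
      (zp P Ψ y u S) := by
  have hΨ := psi_axis hj hS h2
  set w₀ : ℂ := (u : ℂ) + S * I with hw₀
  have hΨi : |(Ψ w₀).im - (P u).im - k u * S| ≤ S / 16 := by
    have e : (Ψ w₀ - P u - (I * c u + k u) * (S * I)).im = (Ψ w₀).im - (P u).im - k u * S := by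
      simp
    rw [← e]
    exact (Complex.abs_im_le_norm _).trans hΨ
  rw [abs_le] at hΨi
  have hkS : -(T * S) ≤ k u * S := by
    have := mul_le_mul_of_nonneg_right (abs_le.1 hk).1 hS.le
    linarith
  have hQ2 : (T + 2) * S ≤ Q * S := mul_le_mul_of_nonneg_right hQ hS.le
  have hax : (P u).im - Q * S ≤ (Ψ w₀).im - S := by linarith
  have hTS : 0 ≤ T * S := by positivity
  refine ⟨fun t ht => ?_, ?_⟩
  · have e : (((y : ℂ) + ((P u).im - Q * S : ℝ) * I, w₀) : ℂ × ℂ) +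
        (t : ℂ) • (zp P Ψ y u S - ((y : ℂ) + ((P u).im - Q * S : ℝ) * I, w₀)) =
        ((y : ℂ) + ((P u).im - Q * S : ℝ) * I +
          (t : ℂ) * ((((y - (P u).re : ℝ) : ℂ) - S * I + Ψ w₀) -
            ((y : ℂ) + ((P u).im - Q * S : ℝ) * I)), (u : ℂ) + S * I) := by
      apply Prod.ext
      · simp [zp, hw₀]
      · simp [zp, hw₀]
    rw [e]
    have him : ((y : ℂ) + ((P u).im - Q * S : ℝ) * I +
          (t : ℂ) * ((((y - (P u).re : ℝ) : ℂ) - S * I + Ψ w₀) -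
            ((y : ℂ) + ((P u).im - Q * S : ℝ) * I))).im =
        (1 - t) * ((P u).im - Q * S) + t * ((Ψ w₀).im - S) := by
      simp
      ring
    have ht1 : 0 ≤ 1 - t := by linarith [ht.2]
    refine cmp_ball hj hk' hT hc hk hκ0 hκT hS h2 ?_ ?_
    · rw [him]
      have a3 := mul_le_mul_of_nonneg_left hax ht1
      linarith
    · rw [him]
      have a3 := mul_le_mul_of_nonneg_left hax ht.1
      linarith
  · rw [← hL]
    have e : zp P Ψ y u S - ((y : ℂ) + ((P u).im - Q * S : ℝ) * I, w₀) =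
        ((Ψ w₀ - P u - (I * c u + k u) * (S * I)) + (I * c u + k u) * (S * I) +
          ((Q * S - S : ℝ) : ℂ) * I, 0) := by
      apply Prod.ext
      · have e2 : (P u) = ((P u).re : ℂ) + ((P u).im : ℂ) * I := (Complex.re_add_im _).symm
        have e3 : (zp P Ψ y u S - ((y : ℂ) + ((P u).im - Q * S : ℝ) * I, w₀)).1 =
            Ψ w₀ - (((P u).re : ℂ) + ((P u).im : ℂ) * I) + ((Q * S - S : ℝ) : ℂ) * I := by
          simp only [zp, Prod.fst_sub]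
          push_cast
          ring
        rw [e3, ← e2]
        ring
      · simp [zp, hw₀]
    have hL0 : 0 ≤ L' := le_trans (by nlinarith) hL1
    rw [e, Prod.norm_def, norm_zero]
    refine max_le ((norm_add_le _ _).trans ?_) hL0
    have a1 : ‖(I * (c u : ℂ) + k u) * (S * I)‖ ≤ 2 * T * S := by
      rw [norm_mul]
      have b1 : ‖I * ((c u : ℝ) : ℂ) + ((k u : ℝ) : ℂ)‖ ≤ 2 * T := by
        refine (norm_add_le _ _).trans ?_
        rw [norm_mul, Complex.norm_I, one_mul, Complex.norm_real, Complex.norm_real,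
          Real.norm_eq_abs, Real.norm_eq_abs]
        linarith
      have b2 : ‖(S : ℂ) * I‖ = S := by
        rw [norm_mul, Complex.norm_I, mul_one, Complex.norm_real, Real.norm_eq_abs, abs_of_pos hS]
      rw [b2]
      exact mul_le_mul_of_nonneg_right b1 hS.le
    have a2 : ‖((Q * S - S : ℝ) : ℂ) * I‖ = Q * S - S := by
      rw [norm_mul, Complex.norm_I, mul_one, Complex.norm_real, Real.norm_eq_abs,
        abs_of_nonneg (by linarith)]
    have a3 := norm_add_le (Ψ w₀ - P u - (I * (c u : ℂ) + k u) * (S * I))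
      ((I * (c u : ℂ) + k u) * (S * I))
    rw [a2]
    linarith

/-- the four segments of a window -/
theorem segs (hBj : B ⊆ Mj) (hBk : B ⊆ Mk) (hT : 0 ≤ T) (hc : |c u| ≤ T) (hk : |k u| ≤ T)
    (hK : 0 < K) (hC : 0 < C)
    (hcone : ∀ v : ℂ, ‖v‖ < δ₁ → ∀ t : ℂ, b < t.im →
      t.im < (P u).im + c u * v.re - K * |v.im| - 1 * ‖v‖ → (t, (u : ℂ) + v) ∈ B)
    (hj : Cmp Mj b m Ψ u ρ₁ (P u) (c u) (k u) (1 / 2) (1 / 16))
    (hk' : Cmp Mk b m Ψ u ρ₁ (P u) (c u) (k u) (1 / 2) (1 / 16))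
    (hβ : b + β₀ ≤ (P u).im) (hκ0 : 0 < κ) (hκ : κ * (64 * (T + K + 4) * (C + 1)) = 1)
    (hl : l * κ = 4 * (T + K + 4) * (C + 1)) {S : ℝ} (hS : 0 < S) (h1 : 2 * S < δ₁)
    (h2 : 2 * S < ρ₁) (h3 : S < |u|) (h4 : (T + K + 5) * (C + 1) * S ≤ β₀)
    {y y' S' : ℝ} (hy : |y' - y| ≤ C * S) (hS1 : S ≤ C * S') (hS2 : S' ≤ C * S) (hS'0 : 0 < S') :
    ∃ z₂ z₃ : ℂ × ℂ, Sg (Dm Mj Mk) l (κ * S) (vp P y u S) z₂ ∧
      Sg (Dm Mj Mk) l (κ * S) (vp P y' u S') z₂ ∧ Sg (Dm Mj Mk) l (κ * S) z₂ z₃ ∧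
      Sg (Dm Mj Mk) l (κ * S) z₃ (zp P Ψ y u S) := by
  obtain ⟨Q, hQ⟩ : ∃ Q : ℝ, Q = T + K + 4 := ⟨_, rfl⟩
  rw [← hQ] at hκ hl
  have hQ4 : 4 ≤ Q := by linarith
  have hκQ0 : 0 < κ * Q := by positivity
  have hκQC : κ * Q * (C + 1) = 1 / 64 := by linarith
  have hκQ : κ * Q ≤ 1 / 64 := by
    have : 0 < κ * Q * C := by positivity
    linarith
  have hκ2 : κ ≤ 1 / 256 := by
    have : κ * 4 ≤ κ * Q := mul_le_mul_of_nonneg_left hQ4 hκ0.le
    linarith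
  have hκT : κ * (2 * T + 1) ≤ 1 / 32 := by
    have : κ * (2 * T + 1) ≤ κ * (2 * Q) := mul_le_mul_of_nonneg_left (by linarith) hκ0.le
    linarith
  have hCS : 0 < C * S := by positivity
  have hκS : κ * S ≤ 1 / 256 * S := mul_le_mul_of_nonneg_right hκ2 hS.le
  have hQCS : 0 < Q * (C * S) := by positivity
  have h4' : (Q + 1) * (C + 1) * S ≤ β₀ := by rw [hQ]; linarith
  have h4'' : (Q + 1) * (C + 1) * S = Q * (C * S) + Q * S + C * S + S := by ring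
  have hQ4S : 4 * (C * S) ≤ Q * (C * S) := mul_le_mul_of_nonneg_right hQ4 hCS.le
  have hQ4S' : 4 * S ≤ Q * S := mul_le_mul_of_nonneg_right hQ4 hS.le
  have lenl : 4 * Q * (C + 1) * S = l * (κ * S) := by rw [← mul_assoc, hl]
  have len' : 4 * Q * (C + 1) * S = 4 * (Q * (C * S)) + 4 * (Q * S) := by ring
  have qS : κ * Q * S ≤ 1 / 64 * S := mul_le_mul_of_nonneg_right hκQ hS.le
  have qS' : κ * Q * S ≤ S' := by
    have b1 : κ * Q * S ≤ κ * Q * (C * S') := mul_le_mul_of_nonneg_left hS1 hκQ0.le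
    have b2 : κ * Q * (C * S') = κ * Q * (C + 1) * S' - κ * Q * S' := by ring
    have b3 : 0 < κ * Q * S' := by positivity
    rw [hκQC] at b2
    linarith
  have z2 : b + Q * S + κ * S ≤ (P u).im := by linarith
  refine ⟨_, _, seg_a (y := y) hBj hBk hT hc hK hcone hQ hκ0 (by linarith) hS h1 h3 (by linarith)
      (by linarith) z2 (by linarith) lenl (by linarith) ?_,
    seg_a (y := y) hBj hBk hT hc hK hcone hQ hκ0 (by linarith) hS h1 h3 qS' (by linarith) z2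
      (by linarith) lenl (by linarith) ?_,
    seg_b hBj hBk hT hc hK hcone hQ hκ0 (by linarith) hS h1 h3 (by linarith) z2 lenl (by linarith),
    seg_c hT hc hk hj hk' (by linarith) hκ0 hκT hS h2 z2 lenl (by linarith)⟩
  · rw [sub_self, abs_zero, abs_of_nonpos (by linarith)]
    linarith
  · rw [abs_sub_comm]
    have a1 : |S' - Q * S| ≤ C * S + Q * S := by
      rw [abs_le]
      constructor <;> linarith
    linarith

/-- depth of the points near the axis point, in straight coordinates -/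
theorem near_axis (hT : 0 ≤ T) (hc : |c u| ≤ T) (hk : |k u| ≤ T)
    (hj : Cmp Mj b m Ψ u ρ₁ (P u) (c u) (k u) (1 / 2) (1 / 16)) (hκ0 : 0 < κ)
    (hκT : κ * (2 * T + 1) ≤ 1 / 32) {S : ℝ} (hS : 0 < S) (h2 : 2 * S < ρ₁) {y : ℝ}
    {β : ℂ × ℂ} (hβ : ‖β - zp P Ψ y u S‖ ≤ κ * S / 2) :
    S / 2 ≤ (Ψ β.2).im - β.1.im ∧ S / 2 ≤ β.2.im ∧
      ‖β.1 - ((y - (P u).re : ℝ) : ℂ) - Ψ β.2‖ ≤ 2 * S ∧ ‖β.2 - u‖ ≤ 2 * S := by
  obtain ⟨β1, w⟩ := β
  have hκ2 : κ ≤ 1 / 32 := by nlinarith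
  have hκS : κ * S ≤ 1 / 32 * S := mul_le_mul_of_nonneg_right hκ2 hS.le
  have hκS0 : 0 < κ * S := by positivity
  rw [Prod.norm_def, max_le_iff] at hβ
  simp only [zp, Prod.fst_sub, Prod.snd_sub] at hβ
  obtain ⟨h3, h4⟩ := hβ
  simp only
  have e1 : (w - (u + S * I)).re = w.re - u := by simp
  have e2 : (w - (u + S * I)).im = w.im - S := by simp
  have h5 : |w.re - u| ≤ κ * S / 2 := by
    rw [← e1]; exact (Complex.abs_re_le_norm _).trans h4
  have h6 : |w.im - S| ≤ κ * S / 2 := by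
    rw [← e2]; exact (Complex.abs_im_le_norm _).trans h4
  rw [abs_le] at h6
  have hw1 : |w.re - u| < ρ₁ := by linarith
  have hw2 : 0 < w.im := by linarith
  have hw3 : w.im < ρ₁ := by linarith
  have g1 := hj.nt w hw1 hw2 hw3 (by nlinarith [abs_nonneg (w.re - u)])
  have g2 := psi_axis hj hS h2
  have n1 : ‖w - u‖ ≤ S + κ * S := by
    have := Complex.norm_le_abs_re_add_abs_im (w - u)
    have e5 : (w - (u : ℂ)).re = w.re - u := by simp
    have e6 : (w - (u : ℂ)).im = w.im := by simp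
    rw [e5, e6, abs_of_pos hw2] at this
    linarith
  have g3 : ‖Ψ w - Ψ (u + S * I) - (I * c u + k u) * (w - (u + S * I))‖ ≤ S / 4 := by
    have e7 : Ψ w - Ψ (u + S * I) - (I * c u + k u) * (w - (u + S * I)) =
        (Ψ w - P u - (I * c u + k u) * (w - u)) -
          (Ψ (u + S * I) - P u - (I * c u + k u) * (S * I)) := by ring
    rw [e7]
    refine (norm_sub_le _ _).trans ?_
    have : 1 / 16 * ‖w - u‖ ≤ 1 / 16 * (S + κ * S) := by gcongr
    linarith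
  have g4 : ‖(I * ((c u : ℝ) : ℂ) + ((k u : ℝ) : ℂ)) * (w - (u + S * I))‖ ≤
      2 * T * (κ * S / 2) := by
    rw [norm_mul]
    have : ‖I * ((c u : ℝ) : ℂ) + ((k u : ℝ) : ℂ)‖ ≤ 2 * T := by
      refine (norm_add_le _ _).trans ?_
      rw [norm_mul, Complex.norm_I, one_mul, Complex.norm_real, Complex.norm_real,
        Real.norm_eq_abs, Real.norm_eq_abs]
      linarith
    exact mul_le_mul this h4 (norm_nonneg _) (by positivity)
  have g5 : ‖Ψ w - Ψ (u + S * I)‖ ≤ S / 4 + 2 * T * (κ * S / 2) := by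
    have e8 : Ψ w - Ψ (u + S * I) =
        (Ψ w - Ψ (u + S * I) - (I * c u + k u) * (w - (u + S * I))) +
        (I * c u + k u) * (w - (u + S * I)) := by ring
    rw [e8]
    exact (norm_add_le _ _).trans (add_le_add g3 g4)
  have g6 : 2 * T * (κ * S) + κ * S ≤ 1 / 32 * S := by
    have : κ * (2 * T + 1) * S ≤ 1 / 32 * S := mul_le_mul_of_nonneg_right hκT hS.le
    nlinarith
  have g7 : |(Ψ w).im - (Ψ (u + S * I)).im| ≤ S / 4 + 2 * T * (κ * S / 2) := by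
    rw [← Complex.sub_im]
    exact (Complex.abs_im_le_norm _).trans g5
  rw [abs_le] at g7
  have g8 : |β1.im - ((Ψ (u + S * I)).im - S)| ≤ κ * S / 2 := by
    have e9 : (β1 - (((y - (P u).re : ℝ) : ℂ) - S * I + Ψ (u + S * I))).im =
        β1.im - ((Ψ (u + S * I)).im - S) := by
      simp
      ring
    rw [← e9]
    exact (Complex.abs_im_le_norm _).trans h3
  rw [abs_le] at g8
  have hTS : 0 ≤ T * (κ * S) := by positivity
  refine ⟨by linarith, by linarith, ?_, by linarith⟩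
  have e10 : β1 - ((y - (P u).re : ℝ) : ℂ) - Ψ w =
      (β1 - (((y - (P u).re : ℝ) : ℂ) - S * I + Ψ (u + S * I))) - S * I -
        (Ψ w - Ψ (u + S * I)) := by ring
  rw [e10]
  have e11 : ‖(S : ℂ) * I‖ = S := by
    rw [norm_mul, Complex.norm_I, mul_one, Complex.norm_real, Real.norm_eq_abs, abs_of_pos hS]
  have n2 := norm_sub_le (β1 - (((y - (P u).re : ℝ) : ℂ) - S * I + Ψ (u + S * I)) - S * I)
    (Ψ w - Ψ (u + S * I))
  have n3 := norm_sub_le (β1 - (((y - (P u).re : ℝ) : ℂ) - S * I + Ψ (u + S * I))) (S * I)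
  rw [e11] at n3
  linarith

end geo

section main

variable {Λ H : ℝ} {F q : ℂ → ℂ} {b m : ℝ} {Ψ : ℂ → ℂ} {Mj Mk B : Set (ℂ × ℂ)}
  {A : Set ℝ} {P : ℝ → ℂ} {c k : ℝ → ℝ} {K y₀ u₀ σ s : ℝ} {al p th : ℂ × ℂ → ℂ} {J : ℂ → ℂ}

theorem sup_bd (W : W5 Λ H F q b m Ψ Mj Mk B A P c k K y₀ u₀ σ s al p th J) :
    ∃ T : ℝ, 0 ≤ T ∧ ∀ u ∈ A, |c u| ≤ T ∧ |k u| ≤ T := by
  obtain ⟨T, hT⟩ := W.Uj.bd
  exact ⟨T, (abs_nonneg _).trans (hT u₀ W.u0).1, hT⟩

theorem low_bd (W : W5 Λ H F q b m Ψ Mj Mk B A P c k K y₀ u₀ σ s al p th J) :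
    ∃ β₀ > 0, ∀ u ∈ A, b + β₀ ≤ (P u).im := by
  obtain ⟨a, ha, h1⟩ := W.cA.exists_isMinOn ⟨u₀, W.u0⟩ W.cR
  refine ⟨(P a).im - b, sub_pos.2 (W.hb a ha), fun u hu => ?_⟩
  have : (P a).im ≤ (P u).im := h1 hu
  linarith

theorem zero_bd (W : W5 Λ H F q b m Ψ Mj Mk B A P c k K y₀ u₀ σ s al p th J) :
    ∃ η > 0, ∀ u ∈ A, η ≤ |u| := by
  obtain ⟨a, ha, h1⟩ := W.cA.exists_isMinOn ⟨u₀, W.u0⟩ (continuous_abs.continuousOn)
  exact ⟨|a|, abs_pos.2 (W.uz a ha), fun u hu => h1 hu⟩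

/-- what is known at the axis point of scale `S` over `(y, u)`; `vp` = the label point -/
structure AxP (H : ℝ) (F : ℂ → ℂ) (U : Set (ℂ × ℂ)) (P : ℝ → ℂ) (Ψ : ℂ → ℂ)
    (al th : ℂ × ℂ → ℂ) (κ c' L y u S : ℝ) : Prop where
  mid : ∀ v : ℂ × ℂ, ‖v - zp P Ψ y u S‖ ≤ κ * S / 2 → v ∈ U ∧ |(th v).im| ≤ (1 - c') * H
  nr : ∃ β : ℂ × ℂ, ‖β - zp P Ψ y u S‖ ≤ κ * S / 160 ∧ c' ≤ ‖deriv F (th β)‖
  dep : ∀ v : ℂ × ℂ, ‖v - zp P Ψ y u S‖ ≤ κ * S / 2 → S / 2 ≤ (Ψ v.2).im - v.1.im ∧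
    S / 2 ≤ v.2.im ∧ ‖v.1 - ((y - (P u).re : ℝ) : ℂ) - Ψ v.2‖ ≤ 2 * S ∧ ‖v.2 - u‖ ≤ 2 * S
  cmp : ∀ sg : ℝ, (sg = 1 ∨ sg = -1) →
    max (sg * (-2 * (del F al th (zp P Ψ y u S)).im)) 0 ≤
      L * (1 + max (sg * (-2 * (del F al th (vp P y u S)).im)) 0) ∧
    max (sg * (-2 * (del F al th (vp P y u S)).im)) 0 ≤
      L * (1 + max (sg * (-2 * (del F al th (zp P Ψ y u S)).im)) 0)

theorem re_two_I (x : ℂ) : (2 * I * x).re = -2 * x.im := by simp

/-- **(VC)**: the label point and the axis point of the same scale -/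
theorem vc (W : W5 Λ H F q b m Ψ Mj Mk B A P c k K y₀ u₀ σ s al p th J) {C c₁ : ℝ} (hC : 0 < C)
    (hc₁ : 0 < c₁) :
    ∃ κ > 0, ∃ c' > 0, ∃ L : ℝ, 1 ≤ L ∧ ∃ S₀ > 0, ∀ u ∈ A, ∀ y S : ℝ, 0 < S → S ≤ S₀ →
      |(th (vp P y u S)).im| ≤ (1 - c₁) * H →
      (∃ y' S' : ℝ, |y' - y| ≤ C * S ∧ S ≤ C * S' ∧ S' ≤ C * S ∧
        c₁ ≤ ‖deriv F (th (vp P y' u S'))‖) → AxP H F (Dm Mj Mk) P Ψ al th κ c' L y u S := by
  obtain ⟨T, hT, hb1⟩ := sup_bd W
  obtain ⟨β₀, hβ₀, hb2⟩ := low_bd W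
  obtain ⟨η, hη, hb3⟩ := zero_bd W
  have hK := W.K0
  obtain ⟨κ, hκd⟩ : ∃ κ : ℝ, κ = 1 / (64 * (T + K + 4) * (C + 1)) := ⟨_, rfl⟩
  have hκ0 : 0 < κ := by rw [hκd]; positivity
  have hκ : κ * (64 * (T + K + 4) * (C + 1)) = 1 := by
    rw [hκd]; exact one_div_mul_cancel (by positivity)
  obtain ⟨l, hld⟩ : ∃ l : ℝ, l = 4 * (T + K + 4) * (C + 1) / κ := ⟨_, rfl⟩
  have hl0 : 0 ≤ l := by rw [hld]; positivity
  have hl : l * κ = 4 * (T + K + 4) * (C + 1) := by rw [hld]; exact div_mul_cancel₀ _ hκ0.ne'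
  obtain ⟨c', hc', L, hL, hv⟩ := vcomp (E := ℂ × ℂ) (Λ := Λ) (q := q) (F := F) hl0 hc₁
    W.crv.cv.b0 (fun c' hc' => bd_F1 W.crv hc')
  obtain ⟨δ₁, hδ₁, hcone⟩ := W.coneU 1 one_pos
  obtain ⟨ρ₁, hρ₁, hj⟩ := W.Uj.cmp (1 / 2) (by norm_num) (1 / 16) (by norm_num)
  obtain ⟨ρ₂, hρ₂, hk⟩ := W.Uk.cmp (1 / 2) (by norm_num) (1 / 16) (by norm_num)
  have hVD : VD Λ H F q (Dm Mj Mk) al p th :=
    ⟨W.crv.cv, W.dal.mono (fun z hz => hz.1.2), W.dth, W.mem, W.inc, W.smp⟩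
  have hD : 0 < (T + K + 5) * (C + 1) := by positivity
  refine ⟨κ, hκ0, c', hc', L, hL, min (min (δ₁ / 4) (min (ρ₁ / 4) (ρ₂ / 4)))
    (min (η / 2) (β₀ / ((T + K + 5) * (C + 1)))), by positivity, ?_⟩
  intro u hu y S hS hS0 hmid hnr
  obtain ⟨y', S', hy, hS1, hS2, hF'⟩ := hnr
  have a1 : S ≤ δ₁ / 4 := hS0.trans ((min_le_left _ _).trans (min_le_left _ _))
  have a2 : S ≤ ρ₁ / 4 := hS0.trans ((min_le_left _ _).trans ((min_le_right _ _).trans
    (min_le_left _ _)))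
  have a3 : S ≤ ρ₂ / 4 := hS0.trans ((min_le_left _ _).trans ((min_le_right _ _).trans
    (min_le_right _ _)))
  have a4 : S ≤ η / 2 := hS0.trans ((min_le_right _ _).trans (min_le_left _ _))
  have a5 : S ≤ β₀ / ((T + K + 5) * (C + 1)) := hS0.trans ((min_le_right _ _).trans
    (min_le_right _ _))
  have a6 : (T + K + 5) * (C + 1) * S ≤ β₀ := by
    rw [le_div_iff₀ hD] at a5
    linarith
  have hS'0 : 0 < S' := by
    by_contra h
    have h' : S' ≤ 0 := not_lt.1 h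
    have := mul_nonpos_of_nonneg_of_nonpos hC.le h'
    linarith
  -- a common radius of the comparison
  have mono : ∀ {M : Set (ℂ × ℂ)} {ρ ρ' : ℝ}, ρ' ≤ ρ →
      Cmp M b m Ψ u ρ (P u) (c u) (k u) (1 / 2) (1 / 16) →
      Cmp M b m Ψ u ρ' (P u) (c u) (k u) (1 / 2) (1 / 16) := by
    intro M ρ ρ' hρ h
    refine ⟨h.hol.mono fun w hw => ⟨hw.1.trans_le hρ, hw.2.1, hw.2.2.trans_le hρ⟩,
      fun w h1 h2 h3 => h.bdd w (h1.trans_le hρ) h2 (h3.trans_le hρ),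
      fun t w h1 h2 h3 => h.base t w (h1.trans_le hρ) h2 (h3.trans_le hρ),
      fun w h1 h2 h3 => h.nt w (h1.trans_le hρ) h2 (h3.trans_le hρ)⟩
  have hj' := mono (min_le_left ρ₁ ρ₂) (hj u hu)
  have hk' := mono (min_le_right ρ₁ ρ₂) (hk u hu)
  have h2 : 2 * S < min ρ₁ ρ₂ := lt_min (by linarith) (by linarith)
  have hcu := (hb1 u hu).1
  have hku := (hb1 u hu).2
  have h3 : S < |u| := lt_of_lt_of_le (by linarith) (hb3 u hu)
  have hκT : κ * (2 * T + 1) ≤ 1 / 32 := by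
    have e1 : κ * (2 * T + 1) ≤ κ * (2 * ((T + K + 4) * (C + 1))) := by
      refine mul_le_mul_of_nonneg_left ?_ hκ0.le
      have : 0 ≤ (T + K + 4) * C := by positivity
      linarith
    linarith
  obtain ⟨z₂, z₃, g1, g2, g3, g4⟩ := segs (β₀ := β₀) (y := y) (y' := y') (S' := S') W.Bj W.Bk hT
    hcu hku hK hC (hcone u hu) hj' hk' (hb2 u hu) hκ0 hκ hl hS (by linarith) h2 h3 a6 hy hS1 hS2
    hS'0
  obtain ⟨r1, r2, r3⟩ := hv hVD (mul_pos hκ0 hS) g1 g2 g3 g4 hmid hF'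
  refine ⟨r1, r2, fun v hvz => near_axis hT hcu hku hj' hκ0 hκT hS h2 hvz, fun sg hsg => ?_⟩
  have := r3 sg hsg
  simp only [re_two_I] at this
  exact this

/-- the axis point in straight coordinates -/
theorem stm_ax (P : ℝ → ℂ) (Ψ : ℂ → ℂ) (y u ρ t : ℝ) :
    H226.W.StM P Ψ y u ρ (H226.W.ax t) = zp P Ψ y u (ρ * t) := by
  have e : (u : ℂ) + (ρ : ℂ) * ((t : ℂ) * I) = (u : ℂ) + ((ρ * t : ℝ) : ℂ) * I := by
    push_cast
    ring
  apply Prod.ext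
  · simp only [H226.W.StM, H226.W.ax, zp]
    rw [e]
    push_cast
    ring
  · simp only [H226.W.StM, H226.W.ax, zp]
    exact e

/-- **row W-BRG** -/
theorem brg : H226.W.Brg := by
  intro Λ H F q b m Ψ Mj Mk B A P c k K y₀ u₀ σ s al p th J W C c₁ hC hc₁
  obtain ⟨κ, hκ, c', hc', L, hL, S₀, hS₀, hv⟩ := vc W hC hc₁
  have hH : 0 < H := W.crv.cv.b0
  refine ⟨2, 1 / 2, min (c' * H) c', L, min S₀ (1 / 2), by norm_num, by norm_num, by norm_num,
    lt_min (by positivity) hc', hL, by positivity, (min_le_right _ _).trans (by norm_num), ?_⟩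
  intro u hu _ y _ h hN ρ hρ hρd hρh t ht ht1
  have hS : 0 < ρ * t := by positivity
  have hSρ : ρ * t ≤ ρ := mul_le_of_le_one_right hρ.le ht1
  have hS0 : ρ * t ≤ S₀ := hSρ.trans (hρd.trans (min_le_left _ _))
  have hh := hN.h0
  have hSh : ρ * t < h := by
    have : min S₀ (1 / 2) * h ≤ 1 / 2 * h := mul_le_mul_of_nonneg_right (min_le_right _ _) hh.le
    linarith
  have ax := hv u hu y (ρ * t) hS hS0 (hN.mid _ hS hSh) (hN.nr2 _ hS hSh)
  refine ⟨?_, fun sg hsg => ?_⟩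
  · obtain ⟨β, hβ, hβ'⟩ := ax.nr
    have hβ2 : ‖β - zp P Ψ y u (ρ * t)‖ ≤ κ * (ρ * t) / 2 := by
      have : 0 < κ * (ρ * t) := by positivity
      linarith
    obtain ⟨d1, d2, d3, d4⟩ := ax.dep β hβ2
    obtain ⟨m1, m2⟩ := ax.mid β hβ2
    have hρ' : (ρ : ℂ) ≠ 0 := by exact_mod_cast hρ.ne'
    have e2 : (u : ℂ) + (ρ : ℂ) * ((β.2 - u) / ρ) = β.2 := by
      rw [mul_div_cancel₀ _ hρ']
      ring
    have e1 : H226.W.StM P Ψ y u ρ
        ((β.1 - ((y - (P u).re : ℝ) : ℂ) - Ψ β.2) / ρ, (β.2 - u) / ρ) = β := by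
      apply Prod.ext
      · simp only [H226.W.StM]
        rw [e2, mul_div_cancel₀ _ hρ']
        ring
      · simp only [H226.W.StM]
        exact e2
    refine ⟨((β.1 - ((y - (P u).re : ℝ) : ℂ) - Ψ β.2) / ρ, (β.2 - u) / ρ), ?_, ?_, ?_, ?_, ?_⟩
    · simp only
      rw [Complex.div_ofReal_im, le_neg, div_le_iff₀ hρ]
      simp only [Complex.sub_im, Complex.ofReal_im, sub_zero]
      linarith
    · simp only
      rw [Complex.div_ofReal_im, le_div_iff₀ hρ]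
      simp only [Complex.sub_im, Complex.ofReal_im, sub_zero]
      linarith
    · rw [Prod.norm_def]
      simp only [norm_div, Complex.norm_real, Real.norm_eq_abs, abs_of_pos hρ]
      refine max_le ?_ ?_
      · rw [div_le_iff₀ hρ]
        linarith
      · rw [div_le_iff₀ hρ]
        linarith
    · simp only
      rw [e1]
      have := min_le_left (c' * H) c'
      linarith
    · simp only
      rw [e1]
      exact (min_le_right _ _).trans hβ'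
  · obtain ⟨c1, c2⟩ := ax.cmp sg hsg
    have e : H226.W.Vq F (fun z => al (H226.W.StM P Ψ y u ρ z))
        (fun z => th (H226.W.StM P Ψ y u ρ z)) t = -2 * (del F al th (zp P Ψ y u (ρ * t))).im := by
      simp only [H226.W.Vq, H226.W.gg, stm_ax]
      rw [re_two_I]
      rfl
    rw [e]
    exact ⟨(le_max_left _ _).trans c1, (le_max_left _ _).trans c2⟩

end main

end Vale.Agent.P097.H21.W
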