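import Vale.Agent.P097.H190.WOut

/-!
# P097 / case [c] / block (W): from bounds on compacts of the wide cone to convergent lines

`line_p`, `line_m`: along an ultrafilter, `e^{iα}` and `2 p e^{iα}` (resp. `e^{-iα}`,
`2 p e^{-iα}`) bounded on every compact of a convex open set `D` give: honest limit lines, or
isotropic limit lines. The alternative is decided by `Im α` at one point.
-/

set_option linter.all false

noncomputable section

open Complex Metric Filter Topology Set

namespace Vale.Agent.P097.H21.W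

open Vale.Agent.P097.H190.Ult Vale.Agent.P097.H190.WO

variable {ι E G : Type*} [NormedAddCommGroup E] [NormedSpace ℂ E] [ProperSpace E]
  [NormedAddCommGroup G] [NormedSpace ℂ G]

/-- honest limit lines -/
def HonD (l : Filter ι) (al p : ι → E → ℂ) (D : Set E) : Prop :=
  ∃ (N : ι → ℤ) (al' p' : E → ℂ), DifferentiableOn ℂ al' D ∧ DifferentiableOn ℂ p' D ∧
    TendstoLocallyUniformlyOn (fun n z => al n z - 2 * Real.pi * N n) al' l D ∧
    TendstoLocallyUniformlyOn (fun n z => p n z) p' l D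

/-- isotropic limit lines, sign `ε = 1` or `-1` -/
def IsoD (l : Filter ι) (al p : ι → E → ℂ) (D : Set E) (ε : ℂ) : Prop :=
  ∃ B' : E → ℂ, DifferentiableOn ℂ B' D ∧
    TendstoLocallyUniformlyOn (fun n z => exp (ε * (2 * I * al n z))) (fun _ => 0) l D ∧
    TendstoLocallyUniformlyOn (fun n z => 2 * p n z * exp (ε * (I * al n z))) B' l D

theorem tlu_zero {l : Filter ι} {f : ι → E → ℂ} {D : Set E}
    (h : ∀ z ∈ D, ∃ r > 0, ∀ ε > 0, ∀ᶠ n in l, ∀ y ∈ ball z r, ‖f n y‖ ≤ ε) :
    TendstoLocallyUniformlyOn f (fun _ => 0) l D := by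
  rw [Metric.tendstoLocallyUniformlyOn_iff]
  intro ε hε z hz
  obtain ⟨r, hr, h1⟩ := h z hz
  refine ⟨ball z r, mem_nhdsWithin_of_mem_nhds (ball_mem_nhds z hr), ?_⟩
  filter_upwards [h1 (ε / 2) (by positivity)] with n hn y hy
  rw [dist_zero_left]
  linarith [hn y hy]

variable (𝒰 : Ultrafilter ι) {al p : ι → E → ℂ} {D : Set E}

/-- bounds on compacts and differentiability on compacts -/
def CB (l : Filter ι) (f : ι → E → ℂ) (D : Set E) : Prop :=
  ∀ K : Set E, K ⊆ D → IsCompact K → ∃ C : ℝ, ∀ᶠ n in l, ∀ z ∈ K, ‖f n z‖ ≤ C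

/-- differentiability near compacts -/
def CD (l : Filter ι) (f : ι → E → ℂ) (D : Set E) : Prop :=
  ∀ K : Set E, K ⊆ D → IsCompact K → ∀ᶠ n in l, ∀ z ∈ K, DifferentiableAt ℂ (f n) z

theorem CD.locD {l : Filter ι} {f : ι → E → ℂ} (hD : IsOpen D) (h : CD l f D) : LocD l f D := by
  intro x hx
  obtain ⟨r, hr, hrD⟩ := Metric.isOpen_iff.mp hD x hx
  refine ⟨r / 2, by positivity, ?_⟩
  filter_upwards [h (closedBall x (r / 2)) ((closedBall_subset_ball (by linarith)).trans hrD)
    (isCompact_closedBall _ _)] with n hn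
  exact fun y hy => (hn y (ball_subset_closedBall hy)).differentiableWithinAt

theorem locBdd_of {l : Filter ι} {f : ι → E → ℂ} (hD : IsOpen D) (h : CD l f D)
    (hb : CB l f D) : LocBdd l f D := by
  refine locBdd_of_compact hD fun K hK hKc => ?_
  obtain ⟨C, hC⟩ := hb K hK hKc
  refine ⟨C, ?_⟩
  filter_upwards [h K hK hKc, hC] with n h1 h2 z hz
  exact ⟨h1 z hz, h2 z hz⟩

theorem honD_of {l : Filter ι} {N : ι → ℤ} (hl : l = (𝒰 : Filter ι)) (hD : IsOpen D)
    (h1 : LocBdd l (fun n z => al n z - 2 * Real.pi * N n) D) (h2 : LocBdd l p D) :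
    HonD l al p D := by
  subst hl
  obtain ⟨al', d1, c1, -⟩ := montel_full 𝒰 hD h1
  obtain ⟨p', d2, c2, -⟩ := montel_full 𝒰 hD h2
  exact ⟨N, al', p', d1, d2, c1, c2⟩

/-- **sign `+`** -/
theorem line_p (hD : IsOpen D) (hc : IsPreconnected D) {z₀ : E} (hz₀ : z₀ ∈ D)
    (dal : CD (𝒰 : Filter ι) al D) (dp : CD (𝒰 : Filter ι) p D)
    (h1 : CB (𝒰 : Filter ι) (fun n z => exp (I * al n z)) D)
    (h2 : CB (𝒰 : Filter ι) (fun n z => 2 * p n z * exp (I * al n z)) D) :
    (HonD (𝒰 : Filter ι) al p D ∧ ∃ C : ℝ, ∀ᶠ n in (𝒰 : Filter ι), |(al n z₀).im| ≤ C) ∨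
    (IsoD (𝒰 : Filter ι) al p D 1 ∧
      Tendsto (fun n => (al n z₀).im) (𝒰 : Filter ι) atTop) := by
  have c1 : CD (𝒰 : Filter ι) (fun n z => exp (I * al n z)) D := fun K hK hKc => by
    filter_upwards [dal K hK hKc] with n hn z hz
    exact ((hn z hz).const_mul I).cexp
  have c2 : CD (𝒰 : Filter ι) (fun n z => 2 * p n z * exp (I * al n z)) D := fun K hK hKc => by
    filter_upwards [dal K hK hKc, dp K hK hKc] with n hn hn' z hz
    exact ((hn' z hz).const_mul 2).mul ((hn z hz).const_mul I).cexp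
  have b2 := locBdd_of hD c2 h2
  rcases line_dich 𝒰 hD hc hz₀ (dal.locD hD) (dp.locD hD) (locBdd_of hD c1 h1) b2 with
    ⟨N, h3, h4⟩ | ⟨h3, h4⟩
  · left
    refine ⟨honD_of 𝒰 rfl hD h3 h4, ?_⟩
    obtain ⟨r, hr, C, hC⟩ := h3 z₀ hz₀
    refine ⟨C, ?_⟩
    filter_upwards [hC] with n hn
    have h5 := (abs_im_le_norm _).trans (hn.2 z₀ (mem_ball_self hr))
    have h6 : (al n z₀ - 2 * Real.pi * N n).im = (al n z₀).im := by simp [mul_im]
    rwa [h6] at h5
  · right
    constructor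
    · obtain ⟨B', d1, e1, -⟩ := montel_full 𝒰 hD b2
      refine ⟨B', d1, ?_, ?_⟩
      · have := tlu_zero h4
        simpa only [one_mul] using this
      · simpa only [one_mul] using e1
    · rw [Filter.tendsto_atTop]
      intro M
      obtain ⟨r, hr, h5⟩ := h4 z₀ hz₀
      filter_upwards [h5 (Real.exp (-2 * M)) (Real.exp_pos _)] with n hn
      have h6 := hn z₀ (mem_ball_self hr)
      rw [norm_exp, Real.exp_le_exp] at h6
      have h7 : (2 * I * al n z₀).re = -2 * (al n z₀).im := by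
        simp
      rw [h7] at h6
      linarith

/-- **sign `-`** -/
theorem line_m (hD : IsOpen D) (hc : IsPreconnected D) {z₀ : E} (hz₀ : z₀ ∈ D)
    (dal : CD (𝒰 : Filter ι) al D) (dp : CD (𝒰 : Filter ι) p D)
    (h1 : CB (𝒰 : Filter ι) (fun n z => exp (-I * al n z)) D)
    (h2 : CB (𝒰 : Filter ι) (fun n z => 2 * p n z * exp (-I * al n z)) D) :
    (HonD (𝒰 : Filter ι) al p D ∧ ∃ C : ℝ, ∀ᶠ n in (𝒰 : Filter ι), |(al n z₀).im| ≤ C) ∨
    (IsoD (𝒰 : Filter ι) al p D (-1) ∧
      Tendsto (fun n => (al n z₀).im) (𝒰 : Filter ι) atBot) := by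
  have e0 : ∀ x : ℂ, I * (-x) = -I * x := fun x => by ring
  have dal' : CD (𝒰 : Filter ι) (fun n z => -al n z) D := fun K hK hKc => by
    filter_upwards [dal K hK hKc] with n hn z hz
    exact (hn z hz).neg
  rcases line_p 𝒰 (al := fun n z => -al n z) (p := p) hD hc hz₀ dal' dp
    (by simpa only [e0] using h1) (by simpa only [e0] using h2) with ⟨h3, C, hC⟩ | ⟨h3, h4⟩
  · left
    constructor
    · obtain ⟨N, al', p', d1, d2, e1, e2⟩ := h3
      refine ⟨fun n => -N n, fun z => -al' z, p', d1.neg, d2, ?_, e2⟩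
      have e3 := e1.neg
      refine e3.congr fun n z hz => ?_
      simp only [Pi.neg_apply, Int.cast_neg]
      ring
    · refine ⟨C, hC.mono fun n hn => ?_⟩
      simpa using hn
  · right
    constructor
    · obtain ⟨B', d1, e1, e2⟩ := h3
      refine ⟨B', d1, ?_, ?_⟩
      · refine e1.congr fun n z hz => ?_
        simp only [one_mul]
        ring_nf
      · refine e2.congr fun n z hz => ?_
        simp only [one_mul]
        ring_nf
    · have h5 := tendsto_neg_atTop_atBot.comp h4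
      refine h5.congr fun n => ?_
      simp

end Vale.Agent.P097.H21.W
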