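import Vale.Agent.P097.H21.W.Brg
import Vale.Agent.P097.H190.Seq5
import Vale.Agent.P097.H365.PW.Pw
import Vale.Agent.P097.H320.W5.StInst

/-!
# P097 / case [c] / block (W), assembly: `A5.PW` is a theorem
-/

set_option linter.all false

namespace Vale.Agent.P097.H21.W

/-- **block (W)** -/
theorem pw : Vale.Agent.P097.A5.PW :=
  Vale.Agent.P097.H190.SQ.fin Vale.Agent.P097.H365.PW.pw Vale.Agent.P097.H320.W.inst brg

end Vale.Agent.P097.H21.W
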