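import Vale.Agent.P097.H881.Sign
import Vale.Agent.P097.H983.Har
import Vale.Agent.P097.H328.W.PosW

/-!
# P097 / case [c] / block (W): comparison of two points of a window along segments

`vcomp`: a mid-level point `zm`, a non R2 point `zp`, a hub `z₂` and a path `z₂ - z₃ - z₄`.
-/

set_option linter.all false

noncomputable section

open Complex Metric Filter Topology Set

namespace Vale.Agent.P097.H21.W

open Vale.Agent.P097.H881 Vale.Agent.P097.TC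

variable {E : Type*} [NormedAddCommGroup E] [NormedSpace ℂ E]

/-- Harnack along a chain -/
theorem ch_harnack {U : Set E} {g : E → ℂ} (hg : DifferentiableOn ℂ g U)
    (hp : ∀ y ∈ U, 0 < (g y).re) {n : ℕ} {z w : E} {R R' : ℝ} (h : Ch U n z R w R') :
    (g z).re ≤ 3 ^ n * (g w).re := by
  induction h with
  | refl _ _ => simp
  | @step n z w v R R' R'' h hRR hv hR hU ih =>
    obtain ⟨hR', hU'⟩ := h.stop
    have h1 : ‖v - w‖ < R' := by linarith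
    obtain ⟨h2, -⟩ := H983.harnack2 (hg.mono hU') (fun y hy => hp y (hU' hy)) h1
    have hv0 : 0 < (g v).re := hp v (hU' (by rwa [mem_ball, dist_eq_norm]))
    have hw0 : 0 < (g w).re := hp w (hU' (mem_ball_self hR'))
    have h3 : (g w).re ≤ 3 * (g v).re := by
      have a1 : R' / 2 ≤ R' - ‖v - w‖ := by linarith
      have a2 : R' + ‖v - w‖ ≤ 3 * (R' / 2) := by linarith
      have a3 : R' / 2 * (g w).re ≤ R' / 2 * (3 * (g v).re) := by
        calc R' / 2 * (g w).re ≤ (R' - ‖v - w‖) * (g w).re := by gcongr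
          _ ≤ (R' + ‖v - w‖) * (g v).re := h2
          _ ≤ 3 * (R' / 2) * (g v).re := by gcongr
          _ = R' / 2 * (3 * (g v).re) := by ring
      exact le_of_mul_le_mul_left a3 (by positivity)
    calc (g z).re ≤ 3 ^ n * (g w).re := ih
      _ ≤ 3 ^ n * (3 * (g v).re) := by gcongr
      _ = 3 ^ (n + 1) * (g v).re := by ring

/-- Harnack in a half ball -/
theorem half_harnack {U : Set E} {g : E → ℂ} (hg : DifferentiableOn ℂ g U)
    (hp : ∀ y ∈ U, 0 < (g y).re) {w v : E} {R : ℝ} (hR : 0 < R) (hU : ball w R ⊆ U)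
    (hv : ‖v - w‖ ≤ R / 2) : (g w).re ≤ 3 * (g v).re := by
  have h1 : ‖v - w‖ < R := by linarith
  obtain ⟨h2, -⟩ := H983.harnack2 (hg.mono hU) (fun y hy => hp y (hU hy)) h1
  have hv0 : 0 < (g v).re := hp v (hU (by rwa [mem_ball, dist_eq_norm]))
  have hw0 : 0 < (g w).re := hp w (hU (mem_ball_self hR))
  have a1 : R / 2 ≤ R - ‖v - w‖ := by linarith
  have a2 : R + ‖v - w‖ ≤ 3 * (R / 2) := by linarith
  have a3 : R / 2 * (g w).re ≤ R / 2 * (3 * (g v).re) := by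
    calc R / 2 * (g w).re ≤ (R - ‖v - w‖) * (g w).re := by gcongr
      _ ≤ (R + ‖v - w‖) * (g v).re := h2
      _ ≤ 3 * (R / 2) * (g v).re := by gcongr
      _ = R / 2 * (3 * (g v).re) := by ring
  exact le_of_mul_le_mul_left a3 (by positivity)

/-- chain along a part of a segment -/
theorem ch_sub {U : Set E} {z w : E} {R : ℝ} (hR : 0 < R)
    (hU : ∀ t ∈ Icc (0 : ℝ) 1, ball (z + (t : ℂ) • (w - z)) R ⊆ U) {t : ℝ}
    (ht : t ∈ Icc (0 : ℝ) 1) :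
    ∃ n : ℕ, (n : ℝ) ≤ 80 * ‖w - z‖ / R + 1 ∧ Ch U n z R (z + (t : ℂ) • (w - z)) R := by
  obtain ⟨n, hn, hc⟩ := Ch.path_seg (z := z) (w := z + (t : ℂ) • (w - z)) (U := U) hR (by
    intro s hs
    have e1 : z + (s : ℂ) • (z + (t : ℂ) • (w - z) - z) = z + ((s * t : ℝ) : ℂ) • (w - z) := by
      rw [add_sub_cancel_left, smul_smul]
      push_cast
      rfl
    rw [e1]
    exact hU _ ⟨mul_nonneg hs.1 ht.1, mul_le_one₀ hs.2 ht.1 ht.2⟩)
  refine ⟨n, hn.trans ?_, hc⟩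
  have e2 : ‖z + (t : ℂ) • (w - z) - z‖ ≤ ‖w - z‖ := by
    rw [add_sub_cancel_left, norm_smul, Complex.norm_real, Real.norm_eq_abs, abs_of_nonneg ht.1]
    exact mul_le_of_le_one_left (norm_nonneg _) ht.2
  gcongr

/-- the segment from `z` to `w` has its `R`-neighbourhood in `U`, length at most `l R` -/
structure Sg (U : Set E) (l R : ℝ) (z w : E) : Prop where
  U : ∀ t ∈ Icc (0 : ℝ) 1, ball (z + (t : ℂ) • (w - z)) R ⊆ U
  l : ‖w - z‖ ≤ l * R

theorem Sg.symm {U : Set E} {l R : ℝ} {z w : E} (h : Sg U l R z w) : Sg U l R w z := by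
  refine ⟨fun t ht => ?_, by rw [norm_sub_rev]; exact h.l⟩
  have h1 := h.U (1 - t) ⟨by linarith [ht.2], by linarith [ht.1]⟩
  have e1 : z + ((1 - t : ℝ) : ℂ) • (w - z) = w + (t : ℂ) • (z - w) := by
    push_cast
    rw [sub_smul, one_smul, smul_sub, smul_sub]
    abel
  rwa [e1] at h1

theorem Sg.ch {U : Set E} {l R : ℝ} {z w : E} (h : Sg U l R z w) (hR : 0 < R) {t : ℝ}
    (ht : t ∈ Icc (0 : ℝ) 1) :
    ∃ n : ℕ, (n : ℝ) ≤ 80 * l + 1 ∧ Ch U n z R (z + (t : ℂ) • (w - z)) R := by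
  obtain ⟨n, hn, hc⟩ := ch_sub hR h.U ht
  refine ⟨n, hn.trans ?_, hc⟩
  have : 80 * ‖w - z‖ / R ≤ 80 * l := by
    rw [div_le_iff₀ hR]
    linarith [h.l]
  linarith

theorem Sg.ch1 {U : Set E} {l R : ℝ} {z w : E} (h : Sg U l R z w) (hR : 0 < R) :
    ∃ n : ℕ, (n : ℝ) ≤ 80 * l + 1 ∧ Ch U n z R w R := by
  have := h.ch hR (t := 1) ⟨zero_le_one, le_rfl⟩
  simpa using this


/-- two-sided comparison of the numbers `Re F` at `v` and at `z'` -/
theorem cmp_two {U : Set E} {n : ℕ} {z w : E} {R R' : ℝ} (h : Ch U n z R w R') {M : ℝ}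
    {F G : E → ℂ} (hRG : RG U M F G) (h0 : G z ≠ 0) {N : ℕ} (hn : n ≤ N) {l : ℝ}
    (hl : Lg M G z ≤ l) (sg : ℝ) (hsg : sg = 1 ∨ sg = -1) :
    max (sg * (F w).re) 0 ≤ KS ^ (N + 1) * (1 + l) * (1 + max (sg * (F z).re) 0) ∧
    max (sg * (F z).re) 0 ≤ KS ^ (N + 1) * (1 + l) * (1 + max (sg * (F w).re) 0) := by
  have hR := h.start.1
  have hR' := h.stop.1
  obtain ⟨h1, h2, h3, h4⟩ := h.fin1 hRG (z' := z) (v := w)
    (by rw [sub_self, norm_zero]; positivity) h0 (by rw [sub_self, norm_zero]; positivity)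
  have hK := KS_one
  have hL0 := Lg_nonneg hRG (h.start.2 (mem_ball_self hR)) h0
  have hKn : KS ^ (n + 1) ≤ KS ^ (N + 1) := pow_le_pow_right₀ hK (by omega)
  have hK0 : 0 < KS ^ (n + 1) := by positivity
  have key : ∀ x y : ℝ, 0 ≤ y → x ≤ KS ^ (n + 1) * (1 + y + Lg M G z) →
      x ≤ KS ^ (N + 1) * (1 + l) * (1 + y) := by
    intro x y hy hx
    refine hx.trans ?_
    have e1 : 1 + y + Lg M G z ≤ (1 + l) * (1 + y) := by nlinarith
    calc KS ^ (n + 1) * (1 + y + Lg M G z) ≤ KS ^ (N + 1) * ((1 + l) * (1 + y)) := by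
          gcongr
          all_goals linarith
      _ = KS ^ (N + 1) * (1 + l) * (1 + y) := by ring
  rcases hsg with rfl | rfl
  · simp only [one_mul]
    exact ⟨key _ _ (le_max_right _ _) h2, key _ _ (le_max_right _ _) (by
      refine h4.trans (le_of_eq ?_); ring)⟩
  · simp only [neg_mul, one_mul]
    exact ⟨key _ _ (le_max_right _ _) h1, key _ _ (le_max_right _ _) (by
      refine h3.trans (le_of_eq ?_); ring)⟩

variable {Λ H : ℝ} {F q : ℂ → ℂ} {U₀ : Set E} {al p th : E → ℂ}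

/-- the data of a vertex on an open set -/
structure VD (Λ H : ℝ) (F q : ℂ → ℂ) (U₀ : Set E) (al p th : E → ℂ) : Prop where
  cv : Cv Λ H F q
  dal : DifferentiableOn ℂ al U₀
  dth : DifferentiableOn ℂ th U₀
  mem : ∀ z ∈ U₀, th z ∈ Sb H
  inc : ∀ z ∈ U₀, Mi F q (al z) (p z) (th z) = 0
  smp : ∀ z ∈ U₀, deriv (Mi F q (al z) (p z)) (th z) ≠ 0

/-- mid level along a chain and in the half of the last ball -/
theorem VD.mid (V : VD Λ H F q U₀ al p th) {n : ℕ} {z w : E} {R R' : ℝ} (h : Ch U₀ n z R w R')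
    {c : ℝ} (hz : |(th z).im| ≤ (1 - c) * H) {v : E} (hv : ‖v - w‖ ≤ R' / 2) :
    v ∈ U₀ ∧ |(th v).im| ≤ (1 - c / 3 ^ (n + 1)) * H := by
  have hR' := h.stop.1
  have hvU : v ∈ U₀ := h.stop.2 (by rw [mem_ball, dist_eq_norm]; linarith)
  refine ⟨hvU, ?_⟩
  have key : ∀ s : ℝ, (s = 1 ∨ s = -1) → c * H ≤ 3 ^ (n + 1) * (H - s * (th v).im) := by
    intro s hs
    set g : E → ℂ := fun z => (H : ℂ) + (s : ℂ) * (I * th z) with hg
    have hgre : ∀ z, (g z).re = H - s * (th z).im := by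
      intro z
      simp [hg]
      ring
    have hgd : DifferentiableOn ℂ g U₀ := (((V.dth.const_mul I).const_mul (s : ℂ)).const_add (H : ℂ))
    have hgp : ∀ y ∈ U₀, 0 < (g y).re := by
      intro y hy
      have h1 : |(th y).im| < H := V.mem y hy
      rw [hgre]
      rw [abs_lt] at h1
      rcases hs with rfl | rfl <;> linarith
    have h1 := ch_harnack hgd hgp h
    have h2 := half_harnack hgd hgp hR' h.stop.2 hv
    rw [hgre] at h1
    rw [hgre v, hgre w] at h2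
    rw [hgre w] at h1
    have h3 : c * H ≤ H - s * (th z).im := by
      rw [abs_le] at hz
      rcases hs with rfl | rfl <;> linarith
    calc c * H ≤ 3 ^ n * (H - s * (th w).im) := h3.trans h1
      _ ≤ 3 ^ n * (3 * (H - s * (th v).im)) := by gcongr
      _ = 3 ^ (n + 1) * (H - s * (th v).im) := by ring
  have h1 := key 1 (Or.inl rfl)
  have h2 := key (-1) (Or.inr rfl)
  have e : (1 - c / 3 ^ (n + 1)) * H = H - c * H / 3 ^ (n + 1) := by ring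
  rw [e, abs_le]
  have h3 : (0 : ℝ) < 3 ^ (n + 1) := by positivity
  have h4 : c * H / 3 ^ (n + 1) ≤ H - 1 * (th v).im := by rw [div_le_iff₀ h3]; linarith
  have h5 : c * H / 3 ^ (n + 1) ≤ H - (-1) * (th v).im := by rw [div_le_iff₀ h3]; linarith
  constructor <;> linarith

/-- **comparison of two points of a window** -/
theorem vcomp {l : ℝ} (hl : 0 ≤ l) {c₁ : ℝ} (hc₁ : 0 < c₁) (hH : 0 < H)
    (hM : ∀ c' > 0, ∃ M : ℝ, ∀ x : ℂ, |x.im| ≤ (1 - c') * H → ‖deriv F x‖ ≤ M) :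
    ∃ c' > 0, ∃ L : ℝ, 1 ≤ L ∧ ∀ {U₀ : Set E} {al p th : E → ℂ}, VD Λ H F q U₀ al p th →
      ∀ {R : ℝ}, 0 < R → ∀ {zm z' z₂ z₃ z₄ : E}, Sg U₀ l R zm z₂ → Sg U₀ l R z' z₂ →
      Sg U₀ l R z₂ z₃ → Sg U₀ l R z₃ z₄ → |(th zm).im| ≤ (1 - c₁) * H →
      c₁ ≤ ‖deriv F (th z')‖ →
      (∀ v, ‖v - z₄‖ ≤ R / 2 → v ∈ U₀ ∧ |(th v).im| ≤ (1 - c') * H) ∧
      (∃ β, ‖β - z₄‖ ≤ R / 160 ∧ c' ≤ ‖deriv F (th β)‖) ∧
      ∀ sg : ℝ, (sg = 1 ∨ sg = -1) →
        max (sg * (2 * I * (al z₄ - F (th z₄))).re) 0 ≤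
          L * (1 + max (sg * (2 * I * (al zm - F (th zm))).re) 0) ∧
        max (sg * (2 * I * (al zm - F (th zm))).re) 0 ≤
          L * (1 + max (sg * (2 * I * (al z₄ - F (th z₄))).re) 0) := by
  -- numbers of steps
  obtain ⟨N, hN⟩ := exists_nat_ge (3 * (160 * l + 1))
  set c₂ : ℝ := c₁ / 3 ^ (N + 1) with hc₂
  have hc₂0 : 0 < c₂ := by positivity
  obtain ⟨M₀, hM₀⟩ := hM c₂ hc₂0
  set M : ℝ := max M₀ (max c₁ 1) with hMd
  have hM1 : 0 < M := lt_of_lt_of_le one_pos ((le_max_right _ _).trans (le_max_right _ _))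
  have hMc : c₁ ≤ M := (le_max_left _ _).trans (le_max_right _ _)
  set ℓ : ℝ := Real.log (M / c₁) with hℓ
  have hℓ0 : 0 ≤ ℓ := Real.log_nonneg ((one_le_div hc₁).mpr hMc)
  set K : ℝ := KS ^ (N + 1) * (1 + ℓ) with hK
  have hK1 : 1 ≤ K := by
    have h1 : (1 : ℝ) ≤ KS ^ (N + 1) := one_le_pow₀ KS_one
    nlinarith
  set c₃ : ℝ := M * Real.exp (-(13 ^ N * ℓ)) with hc₃
  have hc₃0 : 0 < c₃ := by positivity
  refine ⟨min c₂ c₃, lt_min hc₂0 hc₃0, 2 * K ^ 2, by nlinarith, ?_⟩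
  intro U₀ al p th V R hR zm z' z₂ z₃ z₄ s1 s2 s3 s4 hzm hz'
  -- chains with the large balls
  have hR2 : 0 < R / 2 := by positivity
  have steps : ∀ n₁ n₂ n₃ : ℕ, (n₁ : ℝ) ≤ 80 * l + 1 → (n₂ : ℝ) ≤ 80 * l + 1 →
      (n₃ : ℝ) ≤ 80 * l + 1 → n₁ + n₂ + n₃ ≤ N := by
    intro n₁ n₂ n₃ h1 h2 h3
    have : ((n₁ + n₂ + n₃ : ℕ) : ℝ) ≤ N := by
      push_cast
      nlinarith
    exact_mod_cast this
  have steps' : ∀ n₁ n₂ n₃ : ℕ, (n₁ : ℝ) ≤ 160 * l + 1 → (n₂ : ℝ) ≤ 160 * l + 1 →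
      (n₃ : ℝ) ≤ 160 * l + 1 → n₁ + n₂ + n₃ ≤ N := by
    intro n₁ n₂ n₃ h1 h2 h3
    have : ((n₁ + n₂ + n₃ : ℕ) : ℝ) ≤ N := by
      push_cast
      linarith
    exact_mod_cast this
  have midN : ∀ {n : ℕ} {w : E}, n ≤ N → Ch U₀ n zm R w R → ∀ v, ‖v - w‖ ≤ R / 2 →
      v ∈ U₀ ∧ |(th v).im| ≤ (1 - c₂) * H := by
    intro n w hn hch v hv
    obtain ⟨h1, h2⟩ := V.mid hch hzm hv
    refine ⟨h1, h2.trans ?_⟩
    have h3 : c₂ ≤ c₁ / 3 ^ (n + 1) := by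
      rw [hc₂]
      exact div_le_div_of_nonneg_left hc₁.le (by positivity)
        (pow_le_pow_right₀ (by norm_num) (by omega))
    nlinarith
  have zl : (0 : ℝ) ≤ 80 * l + 1 := by positivity
  -- the good set
  set U : Set E := {z | z ∈ U₀ ∧ |(th z).im| ≤ (1 - c₂) * H} with hU
  have hsub : ∀ {n : ℕ} {w : E}, n ≤ N → Ch U₀ n zm R w R → ball w (R / 2) ⊆ U := by
    intro n w hn hch v hv
    rw [mem_ball, dist_eq_norm] at hv
    exact midN hn hch v hv.le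
  obtain ⟨m₁, hm₁, c1⟩ := s1.ch1 hR
  obtain ⟨m₃, hm₃, c3⟩ := s3.ch1 hR
  -- segments with the half balls in `U`
  have half : ∀ {a b : E} {k₁ k₂ : ℕ}, (k₁ : ℝ) ≤ 80 * l + 1 → (k₂ : ℝ) ≤ 80 * l + 1 →
      Ch U₀ (k₁ + k₂) zm R a R → Sg U₀ l R a b → Sg U (2 * l) (R / 2) a b := by
    intro a b k₁ k₂ hk₁ hk₂ hch hs
    refine ⟨fun t ht => ?_, by linarith [hs.l]⟩
    obtain ⟨k, hk, hck⟩ := hs.ch hR ht
    exact hsub (steps k₁ k₂ k hk₁ hk₂ hk) (hch.trans hck)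
  have r1 : Sg U (2 * l) (R / 2) zm z₂ :=
    half (k₁ := 0) (k₂ := 0) (by simpa using zl) (by simpa using zl)
      (Ch.refl hR (by simpa using s1.U 0 ⟨le_rfl, zero_le_one⟩)) s1
  have r2 : Sg U (2 * l) (R / 2) z₂ z' :=
    half (k₁ := m₁) (k₂ := 0) hm₁ (by simpa using zl) (by simpa using c1) s2.symm
  have r3 : Sg U (2 * l) (R / 2) z₂ z₃ :=
    half (k₁ := m₁) (k₂ := 0) hm₁ (by simpa using zl) (by simpa using c1) s3
  have r4 : Sg U (2 * l) (R / 2) z₃ z₄ := half hm₁ hm₃ (c1.trans c3) s4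
  -- data `RG` on `U`
  have hUU : U ⊆ U₀ := fun z hz => hz.1
  have hRG : RG U M (fun z => 2 * I * (al z - F (th z))) (fun z => deriv F (th z)) :=
    H328.W.rg V.cv (V.dal.mono hUU) (V.dth.mono hUU) (fun z hz => V.mem z hz.1)
      (fun z hz => V.inc z hz.1) (fun z hz => V.smp z hz.1)
      (fun z hz => (hM₀ _ hz.2).trans (le_max_left _ _))
  have hG0 : deriv F (th z') ≠ 0 := by
    intro h
    rw [h, norm_zero] at hz'
    linarith
  have hLg : Lg M (fun z => deriv F (th z)) z' ≤ ℓ := by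
    show Real.log (M / ‖deriv F (th z')‖) ≤ Real.log (M / c₁)
    have h1 : 0 < ‖deriv F (th z')‖ := hc₁.trans_le hz'
    exact Real.log_le_log (by positivity) (div_le_div_of_nonneg_left hM1.le hc₁ hz')
  obtain ⟨k₁, hk₁, e1⟩ := r1.symm.ch1 hR2
  obtain ⟨k₂, hk₂, e2⟩ := r2.symm.ch1 hR2
  obtain ⟨k₃, hk₃, e3⟩ := r3.ch1 hR2
  obtain ⟨k₄, hk₄, e4⟩ := r4.ch1 hR2
  have q : ∀ k : ℕ, (k : ℝ) ≤ 80 * (2 * l) + 1 → (k : ℝ) ≤ 160 * l + 1 := fun k hk => by linarith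
  have n1 : k₂ + k₁ ≤ N := by
    have := steps' k₂ k₁ 0 (q _ hk₂) (q _ hk₁) (by
      simp only [Nat.cast_zero]; positivity)
    simpa using this
  have n2 : k₂ + k₃ + k₄ ≤ N := steps' k₂ k₃ k₄ (q _ hk₂) (q _ hk₃) (q _ hk₄)
  have chm := e2.trans e1
  have ch4 := (e2.trans e3).trans e4
  refine ⟨fun v hv => ?_, ?_, fun sg hsg => ?_⟩
  · obtain ⟨k, hk, hck⟩ := s4.ch1 hR
    obtain ⟨h1, h2⟩ := midN (steps m₁ m₃ k hm₁ hm₃ hk) ((c1.trans c3).trans hck) v hv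
    refine ⟨h1, h2.trans ?_⟩
    have := min_le_left c₂ c₃
    nlinarith
  · obtain ⟨w', hw', hr⟩ := ch4.run hRG (z' := z') (by rw [sub_self, norm_zero]; positivity) hG0
    refine ⟨w', by linarith, (min_le_right _ _).trans ?_⟩
    have h1 : Lg M (fun z => deriv F (th z)) w' ≤ 13 ^ N * ℓ := by
      refine hr.lg.trans ?_
      have h2 : (13 : ℝ) ^ (k₂ + k₃ + k₄) ≤ 13 ^ N := pow_le_pow_right₀ (by norm_num) n2
      calc (13 : ℝ) ^ (k₂ + k₃ + k₄) * Lg M (fun z => deriv F (th z)) z' ≤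
            13 ^ (k₂ + k₃ + k₄) * ℓ := by gcongr
        _ ≤ 13 ^ N * ℓ := by gcongr
    have h3 : 0 < ‖deriv F (th w')‖ := norm_pos_iff.mpr hr.ne
    have h4 : Real.log (M / ‖deriv F (th w')‖) ≤ 13 ^ N * ℓ := h1
    rw [Real.log_le_iff_le_exp (by positivity), div_le_iff₀ h3] at h4
    rw [hc₃, Real.exp_neg, ← div_eq_mul_inv, div_le_iff₀ (Real.exp_pos _)]
    linarith
  · obtain ⟨a1, a2⟩ := cmp_two chm hRG hG0 n1 hLg sg hsg
    obtain ⟨a3, a4⟩ := cmp_two ch4 hRG hG0 n2 hLg sg hsg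
    rw [← hK] at a1 a2 a3 a4
    have m1 := le_max_right (sg * (2 * I * (al z₄ - F (th z₄))).re) 0
    have m2 := le_max_right (sg * (2 * I * (al zm - F (th zm))).re) 0
    constructor
    · refine a3.trans ?_
      calc K * (1 + max (sg * (2 * I * (al z' - F (th z'))).re) 0) ≤
          K * (1 + K * (1 + max (sg * (2 * I * (al zm - F (th zm))).re) 0)) := by gcongr
        _ ≤ 2 * K ^ 2 * (1 + max (sg * (2 * I * (al zm - F (th zm))).re) 0) := by nlinarith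
    · refine a1.trans ?_
      calc K * (1 + max (sg * (2 * I * (al z' - F (th z'))).re) 0) ≤
          K * (1 + K * (1 + max (sg * (2 * I * (al z₄ - F (th z₄))).re) 0)) := by gcongr
        _ ≤ 2 * K ^ 2 * (1 + max (sg * (2 * I * (al z₄ - F (th z₄))).re) 0) := by nlinarith

end Vale.Agent.P097.H21.W
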