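import Vale.Agent.P097.H21.W.Vc
import Vale.Agent.P097.TC.Defs5

/-!
# P097 / case [c] / block (W) / (VC): the real label point `vp` and the axis point `zp` of a window

`vc` : comparison of `Im del` at `vp P y u S` and at `zp P Ψ y u S`, mid level near `zp`, and a
non R2 point near `zp`, with constants uniform in the label, the point and the scale.
-/

set_option linter.all false

noncomputable section

open Complex Metric Filter Topology Set

namespace Vale.Agent.P097.H21.W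

open Vale.Agent.P097.H881 Vale.Agent.P097.TC Vale.Agent.P097.A5 Vale.Agent.P097.H85
open Vale.Agent.P097.H929

/-- the axis point of scale `S` over `(y, u)` -/
def zp (P : ℝ → ℂ) (Ψ : ℂ → ℂ) (y u S : ℝ) : ℂ × ℂ :=
  (((y - (P u).re : ℝ) : ℂ) - S * I + Ψ (u + S * I), (u : ℂ) + S * I)

/-- the curve is bounded on smaller strips -/
theorem bd_F1 {Λ H : ℝ} {F q : ℂ → ℂ} (hc : Crv Λ H F q) {c' : ℝ} (hc' : 0 < c') :
    ∃ M : ℝ, ∀ x : ℂ, |x.im| ≤ (1 - c') * H → ‖deriv F x‖ ≤ M := by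
  obtain ⟨C, hC, h1⟩ := hc.gro 1 one_pos
  have hH : 0 < H := hc.cv.b0
  refine ⟨Real.exp (C * (c' * H) ^ (-1 : ℝ)), fun x hx => ?_⟩
  have hx' : x ∈ Sb H := by
    show |x.im| < H
    nlinarith
  refine (h1 x hx').2.1.trans (Real.exp_le_exp.mpr ?_)
  have h2 : c' * H ≤ H - |x.im| := by linarith
  exact mul_le_mul_of_nonneg_left
    (Real.rpow_le_rpow_of_nonpos (by positivity) h2 (by norm_num)) hC.le

theorem mem_ball_prod {z v : ℂ × ℂ} {r : ℝ} (h : v ∈ ball z r) :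
    ‖v.1 - z.1‖ < r ∧ ‖v.2 - z.2‖ < r := by
  rw [mem_ball, Prod.dist_eq, max_lt_iff, dist_eq_norm, dist_eq_norm] at h
  exact h

section

variable {Mj Mk B : Set (ℂ × ℂ)} {b : ℝ} {R c K δ₁ : ℝ} {u : ℝ}

/-- native balls -/
theorem nat_ball (hBj : B ⊆ Mj) (hBk : B ⊆ Mk) {T : ℝ} (hT : 0 ≤ T) (hc : |c| ≤ T) (hK : 0 < K)
    (hcone : ∀ v : ℂ, ‖v‖ < δ₁ → ∀ t : ℂ, b < t.im →
      t.im < R + c * v.re - K * |v.im| - 1 * ‖v‖ → (t, (u : ℂ) + v) ∈ B)
    {κ S τ lam : ℝ} (hκ : 0 < κ) (hκ1 : κ ≤ 1 / 2) (hS : 0 < S) (hτ : 0 ≤ τ) (hτ1 : τ ≤ 1)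
    (hSδ : 2 * S < δ₁) (hSu : S < |u|) (hlam : κ * (T + K + 4) + (K + 1) * τ ≤ lam)
    {t₀ : ℂ} (h1 : t₀.im ≤ R - lam * S) (h2 : b + κ * S ≤ t₀.im) :
    ball (t₀, (u : ℂ) + ((τ * S : ℝ) : ℂ) * I) (κ * S) ⊆ Dm Mj Mk := by
  rintro ⟨t, w⟩ hz
  obtain ⟨h3, h4⟩ := mem_ball_prod hz
  simp only at h3 h4
  have e1 : (w - (u + ((τ * S : ℝ) : ℂ) * I)).re = (w - u).re := by simp
  have e2 : (w - (u + ((τ * S : ℝ) : ℂ) * I)).im = (w - u).im - τ * S := by simp
  have h5 : |(w - u).re| < κ * S := by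
    rw [← e1]; exact (Complex.abs_re_le_norm _).trans_lt h4
  have h6 : |(w - u).im - τ * S| < κ * S := by
    rw [← e2]; exact (Complex.abs_im_le_norm _).trans_lt h4
  have hτS : 0 ≤ τ * S := by positivity
  have h7 : |(w - u).im| < τ * S + κ * S := by
    have := abs_add_le ((w - u).im - τ * S) (τ * S)
    rw [sub_add_cancel, abs_of_nonneg hτS] at this
    linarith
  have h8 := Complex.norm_le_abs_re_add_abs_im (w - u)
  have h9 : ‖w - u‖ < τ * S + 2 * (κ * S) := by linarith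
  have h10 : |t.im - t₀.im| < κ * S := by
    rw [← Complex.sub_im]; exact (Complex.abs_im_le_norm _).trans_lt h3
  rw [abs_lt] at h10
  have h11 : -(T * (κ * S)) ≤ c * (w - u).re := by
    have h12 : |c * (w - u).re| ≤ T * (κ * S) := by
      rw [abs_mul]
      exact mul_le_mul hc h5.le (abs_nonneg _) hT
    linarith [(abs_le.1 h12).1]
  have h13 : K * |(w - u).im| ≤ K * (τ * S + κ * S) := mul_le_mul_of_nonneg_left h7.le hK.le
  have hlamS : (κ * (T + K + 4) + (K + 1) * τ) * S ≤ lam * S :=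
    mul_le_mul_of_nonneg_right hlam hS.le
  have hmem : (t, (u : ℂ) + (w - u)) ∈ B := by
    apply hcone (w - u) _ t (by linarith) _
    · have : τ * S ≤ 1 * S := mul_le_mul_of_nonneg_right hτ1 hS.le
      have : κ * S ≤ 1 / 2 * S := mul_le_mul_of_nonneg_right hκ1 hS.le
      linarith
    · have : 0 < κ * S := by positivity
      nlinarith
  rw [add_sub_cancel] at hmem
  refine ⟨⟨hBj hmem, hBk hmem⟩, ?_⟩
  intro hw0
  simp only at hw0
  rw [hw0, zero_sub, Complex.neg_re, Complex.ofReal_re, abs_neg] at h5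
  have : κ * S ≤ 1 / 2 * S := mul_le_mul_of_nonneg_right hκ1 hS.le
  linarith

/-- balls in the comparison domain -/
theorem cmp_ball {m ρ k : ℝ} {Ψ : ℂ → ℂ} {P₀ : ℂ} (hj : Cmp Mj b m Ψ u ρ P₀ c k (1 / 2) (1 / 16))
    (hk : Cmp Mk b m Ψ u ρ P₀ c k (1 / 2) (1 / 16)) {T : ℝ} (hT : 0 ≤ T) (hcT : |c| ≤ T)
    (hkT : |k| ≤ T) {κ S : ℝ} (hκ : 0 < κ) (hκ1 : κ * (2 * T + 1) ≤ 1 / 32) (hS : 0 < S)
    (hSρ : 2 * S < ρ) {t₀ : ℂ} (h1 : t₀.im ≤ (Ψ (u + S * I)).im - S) (h2 : b + κ * S ≤ t₀.im) :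
    ball (t₀, (u : ℂ) + S * I) (κ * S) ⊆ Dm Mj Mk := by
  rintro ⟨t, w⟩ hz
  obtain ⟨h3, h4⟩ := mem_ball_prod hz
  simp only at h3 h4
  have hκ2 : κ ≤ 1 / 32 := by nlinarith
  have hκS : κ * S ≤ 1 / 32 * S := mul_le_mul_of_nonneg_right hκ2 hS.le
  have e1 : (w - (u + S * I)).re = w.re - u := by simp
  have e2 : (w - (u + S * I)).im = w.im - S := by simp
  have h5 : |w.re - u| < κ * S := by
    rw [← e1]; exact (Complex.abs_re_le_norm _).trans_lt h4
  have h6 : |w.im - S| < κ * S := by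
    rw [← e2]; exact (Complex.abs_im_le_norm _).trans_lt h4
  rw [abs_lt] at h6
  have h10 : |t.im - t₀.im| < κ * S := by
    rw [← Complex.sub_im]; exact (Complex.abs_im_le_norm _).trans_lt h3
  rw [abs_lt] at h10
  have hw1 : |w.re - u| < ρ := by linarith
  have hw2 : 0 < w.im := by linarith
  have hw3 : w.im < ρ := by linarith
  have g1 := hj.nt w hw1 hw2 hw3 (by nlinarith [abs_nonneg (w.re - u)])
  have e3 : ((u : ℂ) + S * I).re = u := by simp
  have e4 : ((u : ℂ) + S * I).im = S := by simp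
  have g2 := hj.nt (u + S * I) (by rw [e3, sub_self, abs_zero]; linarith) (by rw [e4]; exact hS)
    (by rw [e4]; linarith) (by rw [e3, e4, sub_self, abs_zero]; linarith)
  have n1 : ‖w - u‖ ≤ S + 2 * (κ * S) := by
    have := Complex.norm_le_abs_re_add_abs_im (w - u)
    have e5 : (w - (u : ℂ)).re = w.re - u := by simp
    have e6 : (w - (u : ℂ)).im = w.im := by simp
    rw [e5, e6, abs_of_pos hw2] at this
    linarith
  have n2 : ‖(u : ℂ) + S * I - u‖ = S := by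
    rw [add_sub_cancel_left, norm_mul, Complex.norm_I, mul_one, Complex.norm_real,
      Real.norm_eq_abs, abs_of_pos hS]
  rw [n2] at g2
  have g3 : ‖Ψ w - Ψ (u + S * I) - (I * c + k) * (w - (u + S * I))‖ ≤ S / 4 := by
    have e7 : Ψ w - Ψ (u + S * I) - (I * c + k) * (w - (u + S * I)) =
        (Ψ w - P₀ - (I * c + k) * (w - u)) -
          (Ψ (u + S * I) - P₀ - (I * c + k) * (u + S * I - u)) := by ring
    rw [e7]
    refine (norm_sub_le _ _).trans ?_
    have : 1 / 16 * ‖w - u‖ ≤ 1 / 16 * (S + 2 * (κ * S)) := by gcongr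
    linarith
  have g4 : ‖(I * (c : ℂ) + k) * (w - (u + S * I))‖ ≤ 2 * T * (κ * S) := by
    rw [norm_mul]
    have : ‖I * (c : ℂ) + (k : ℂ)‖ ≤ 2 * T := by
      refine (norm_add_le _ _).trans ?_
      rw [norm_mul, Complex.norm_I, one_mul, Complex.norm_real, Complex.norm_real,
        Real.norm_eq_abs, Real.norm_eq_abs]
      linarith
    exact mul_le_mul this h4.le (norm_nonneg _) (by positivity)
  have g5 : |(Ψ w).im - (Ψ (u + S * I)).im| ≤ S / 4 + 2 * T * (κ * S) := by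
    rw [← Complex.sub_im]
    refine (Complex.abs_im_le_norm _).trans ?_
    have e8 : Ψ w - Ψ (u + S * I) = (Ψ w - Ψ (u + S * I) - (I * c + k) * (w - (u + S * I))) +
        (I * c + k) * (w - (u + S * I)) := by ring
    rw [e8]
    exact (norm_add_le _ _).trans (add_le_add g3 g4)
  rw [abs_le] at g5
  have g6 : 2 * T * (κ * S) + κ * S ≤ 1 / 32 * S := by
    have : κ * (2 * T + 1) * S ≤ 1 / 32 * S := mul_le_mul_of_nonneg_right hκ1 hS.le
    nlinarith
  have hlt : t.im < (Ψ w).im := by linarith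
  have hbt : b < t.im := by linarith
  refine ⟨⟨hj.base t w hw1 hw2 hw3 hbt hlt, hk.base t w hw1 hw2 hw3 hbt hlt⟩, ?_⟩
  intro hw0
  simp only at hw0
  rw [hw0] at hw2
  simp at hw2

end

end Vale.Agent.P097.H21.W
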